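import Vale.Agent.P150.Edge

/-! Resolvents of Gaussian orthogonal matrices near the spectral edge: definitions. -/

namespace Vale.Agent.P150C

open Matrix

noncomputable section

variable {ι : Type} [Fintype ι] [DecidableEq ι]

/-- The matrix `z - (A + Aᵀ) / √(2 N)`. -/
def Mz (N : ℝ) (z : ℂ) (A : ι × ι → ℝ) : Matrix ι ι ℂ :=
  Matrix.of fun i j => (if i = j then z else 0) - (((A (i, j) + A (j, i)) / √(2 * N) : ℝ) : ℂ)

/-- A real vector as a complex vector. -/
def cx (u : ι → ℝ) : ι → ℂ := fun i => (u i : ℂ)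

/-- The quadratic form of the resolvent. -/
def res (N : ℝ) (z : ℂ) (A : ι × ι → ℝ) (u : ι → ℝ) : ℂ := cx u ⬝ᵥ (Mz N z A)⁻¹ *ᵥ cx u

/-- The attracting fixed point. -/
def mm (α : ℝ) : ℂ := ⟨1 - α, -α⟩

/-- The spectral parameter. -/
def zz (α : ℝ) : ℂ := mm α + (mm α)⁻¹

/-- The coordinate in which `g ↦ 1 / (z - g)` is linear. -/
def Wc (α : ℝ) (g : ℂ) : ℂ := (g - mm α) / (g - (mm α)⁻¹)

end

end Vale.Agent.P150C
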