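import Vale.Agent.P150S.Bot
import Vale.Agent.P150S.GapPos

/-! The gap controls linear functions, and the relaxation time bounds the mixing time from below.

`gap_le`: `csInf_le` (the set is bounded below by zero, see the end of `bottleneck`); if `var = 0` use `form ≥ 0`.
`lin_real`: `f x = ∑ a i * sp (x i)` is odd, so `av W f = 0` (as `f3` in `bottleneck`), `dd i f = a i`, `Ex_Dw_sq`.
`exists_eig`: with `W = isw (Jm β g) 0`, minimise `Dir W` on the compact set `{f | Ex W f = 0, Ex W (f ^ 2) = 1}`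
(nonempty: a normalised spin, `var_spin`); the minimum is `gap` (`var_eq`, `form_eq`, `Dir_sub`, scaling); the quadratic form
`h ↦ Dir W h - gap * Ex W (h ^ 2)` is nonnegative on mean zero functions and vanishes at `f`, so its polar form
vanishes at `(f, h)` (discriminant); test with `h = ∑ i, Dw W i f - gap f` (mean zero by `Ex_ind_Dw`; `Ex_mul_Dw`).
`tmix_ge`: `(Pw W)^[k] f = (1 - gap / n) ^ k f`, so `Bot_series` and uniqueness of sums give
`kern t *ᵥ f = exp (-gap t) f`; at a point `x` where `|f|` is maximal (positive),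
`exp (-gap t) |f x| = |∑ y, (kern t x y - gibbs y) f y| ≤ 2 tv t x |f x|`. Finish with `le_csInf (Bot_mix ..)`. -/

namespace Vale.Agent.P150C

open Finset Real Vale.Agent.P150 Vale.Agent.P150S

variable {n : ℕ}

section Gen
variable {ι : Type} [Fintype ι] [DecidableEq ι] {W f : (ι → Bool) → ℝ}

omit [Fintype ι] in
theorem Eig_lin (W f h : (ι → Bool) → ℝ) (c : ℝ) (i : ι) (x : ι → Bool) :
    Dw W i (fun y => f y + c * h y) x = Dw W i f x + c * Dw W i h x := by
  simp only [Dw, Qw]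
  ring

omit [Fintype ι] in
theorem Eig_smul (W h : (ι → Bool) → ℝ) (c : ℝ) (i : ι) (x : ι → Bool) :
    Dw W i (fun y => c * h y) x = c * Dw W i h x := by
  simp only [Dw, Qw]
  ring

theorem Eig_Dir_smul (W h : (ι → Bool) → ℝ) (c : ℝ) :
    Dir W (fun y => c * h y) = c ^ 2 * Dir W h := by
  rw [Dir, Dir, mul_sum]
  refine sum_congr rfl fun i _ => ?_
  rw [← Ex_mul]
  exact Ex_congr fun x => by rw [Eig_smul]; ring

theorem Eig_Dir_add (hW : ∀ x, 0 < W x) (f h : (ι → Bool) → ℝ) (c : ℝ) :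
    Dir W (fun y => f y + c * h y) =
      Dir W f + 2 * c * Ex W (fun x => h x * ∑ i, Dw W i f x) + c ^ 2 * Dir W h := by
  have e : Ex W (fun x => h x * ∑ i, Dw W i f x) =
      ∑ i, Ex W fun x => Dw W i h x * Dw W i f x := by
    simp only [mul_sum, Ex_sum]
    exact sum_congr rfl fun i _ => Ex_mul_Dw hW f h
  rw [e, Dir, Dir, Dir, mul_sum, mul_sum, ← sum_add_distrib, ← sum_add_distrib]
  refine sum_congr rfl fun i _ => ?_
  rw [← Ex_mul, ← Ex_mul, ← Ex_add, ← Ex_add]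
  exact Ex_congr fun x => by rw [Eig_lin]; ring

theorem Eig_crit (hW : ∀ x, 0 < W x) {l : ℝ}
    (h1 : ∀ h, Ex W h = 0 → l * Ex W (fun x => h x ^ 2) ≤ Dir W h) (h2 : Ex W f = 0)
    (h3 : Dir W f = l * Ex W fun x => f x ^ 2) (x : ι → Bool) : ∑ i, Dw W i f x = l * f x := by
  obtain ⟨h, hh⟩ : ∃ h : (ι → Bool) → ℝ, ∀ y, h y = ∑ i, Dw W i f y - l * f y := ⟨_, fun _ => rfl⟩
  have m0 : Ex W h = 0 := by
    have h0 : ∀ i, Ex W (Dw W i f) = 0 := fun i => by
      simpa using Ex_ind_Dw hW (g := fun _ => 1) (i := i) (fun _ _ => rfl) f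
    rw [Ex_congr hh, Ex_sub, Ex_sum, Ex_mul, sum_eq_zero fun i _ => h0 i, h2, mul_zero, sub_zero]
  have e1 : Ex W (fun y => h y * ∑ i, Dw W i f y) =
      Ex W (fun y => h y ^ 2) + l * Ex W fun y => h y * f y := by
    rw [← Ex_mul, ← Ex_add]
    exact Ex_congr fun y => by rw [eq_add_of_sub_eq (hh y).symm]; ring
  have key : ∀ c : ℝ, 0 ≤ (Dir W h - l * Ex W fun y => h y ^ 2) * (c * c) +
      (2 * Ex W fun y => h y ^ 2) * c + 0 := fun c => by
    have a1 := h1 (fun y => f y + c * h y) (by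
      rw [Ex_add, Ex_mul]
      exact (congrArg₂ (fun u v => u + c * v) h2 m0).trans (by ring))
    have a2 : Ex W (fun y => (f y + c * h y) ^ 2) = Ex W (fun y => f y ^ 2) +
        2 * c * Ex W (fun y => h y * f y) + c ^ 2 * Ex W fun y => h y ^ 2 := by
      rw [← Ex_mul, ← Ex_mul, ← Ex_add, ← Ex_add]
      exact Ex_congr fun y => by ring
    rw [Eig_Dir_add hW, e1, a2, h3] at a1
    linarith
  have a3 := discrim_le_zero key
  rw [discrim, mul_zero, sub_zero] at a3
  have a4 : Ex W (fun y => h y ^ 2) = 0 := by nlinarith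
  have a5 := (sum_eq_zero_iff_of_nonneg fun y _ =>
    mul_nonneg (hW y).le (sq_nonneg (h y))).1 a4 x (mem_univ _)
  have a6 : h x = 0 := by simpa [(hW x).ne'] using a5
  rw [hh] at a6
  linarith

theorem Eig_min (hW : ∀ x, 0 < W x) (h2 : Ex W f = 0) (h3 : Ex W (fun x => f x ^ 2) ≠ 0) :
    ∃ f₀ : (ι → Bool) → ℝ, Ex W f₀ = 0 ∧ Ex W (fun x => f₀ x ^ 2) = 1 ∧
      ∀ h, Ex W h = 0 → Dir W f₀ * Ex W (fun x => h x ^ 2) ≤ Dir W h := by
  have nrm : ∀ h, Ex W h = 0 → Ex W (fun x => h x ^ 2) ≠ 0 → ∃ c : ℝ,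
      c ^ 2 * Ex W (fun x => h x ^ 2) = 1 ∧ (fun x => c * h x) ∈
        {f : (ι → Bool) → ℝ | Ex W f = 0 ∧ Ex W (fun x => f x ^ 2) = 1} := fun h a b => by
    have b' : 0 ≤ Ex W fun x => h x ^ 2 := Ex_nonneg hW fun _ => sq_nonneg _
    have e : (√(Ex W fun x => h x ^ 2))⁻¹ ^ 2 * Ex W (fun x => h x ^ 2) = 1 := by
      rw [inv_pow, sq_sqrt b', inv_mul_cancel₀ b]
    refine ⟨_, e, ?_, ?_⟩
    · rw [Ex_mul]
      exact mul_eq_zero_of_right _ a
    · simp only [mul_pow]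
      rw [Ex_mul]
      exact e
  have hc : IsCompact {f : (ι → Bool) → ℝ | Ex W f = 0 ∧ Ex W (fun x => f x ^ 2) = 1} := by
    refine (isCompact_univ_pi fun x => isCompact_Icc (a := -(1 / W x + 1))
      (b := 1 / W x + 1)).of_isClosed_subset ?_ fun f hf x _ => ?_
    · unfold Ex
      exact (isClosed_eq (by fun_prop) continuous_const).inter
        (isClosed_eq (by fun_prop) continuous_const)
    · have a1 : W x * f x ^ 2 ≤ 1 := (single_le_sum (f := fun y => W y * f y ^ 2)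
        (fun y _ => mul_nonneg (hW y).le (sq_nonneg _)) (mem_univ x)).trans_eq hf.2
      have a2 : f x ^ 2 ≤ 1 / W x := by rwa [le_div_iff₀' (hW x)]
      constructor <;> nlinarith [sq_nonneg (f x - 1), sq_nonneg (f x + 1), sq_nonneg (f x)]
  obtain ⟨c, -, hf⟩ := nrm f h2 h3
  obtain ⟨f₀, h0, hm⟩ := hc.exists_isMinOn ⟨_, hf⟩ (f := Dir W)
    (Continuous.continuousOn (by unfold Dir Ex Dw Qw; fun_prop))
  refine ⟨f₀, h0.1, h0.2, fun h a => ?_⟩
  by_cases b : Ex W (fun x => h x ^ 2) = 0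
  · rw [b, mul_zero]
    exact Dir_nonneg hW h
  · obtain ⟨c, e, hh⟩ := nrm h a b
    have a1 : Dir W f₀ ≤ c ^ 2 * Dir W h := (Eig_Dir_smul W h c) ▸ isMinOn_iff.1 hm _ hh
    have a2 := mul_le_mul_of_nonneg_right a1
      (Ex_nonneg hW (f := fun x => h x ^ 2) fun _ => sq_nonneg _)
    rwa [mul_right_comm, e, one_mul] at a2

theorem Eig_iter [Nonempty ι] {l : ℝ} (h : ∀ x, ∑ i, Dw W i f x = l * f x) (k : ℕ) :
    (Pw W)^[k] f = fun x => (1 - l / Fintype.card ι) ^ k * f x := by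
  have hn := (card_pos' (ι := ι)).ne'
  induction k with
  | zero => simp
  | succ k ih =>
    rw [Function.iterate_succ_apply', ih]
    funext x
    have e : ∀ (c : ℝ) (i : ι), Qw W i (fun y => c * f y) x = c * f x - c * Dw W i f x :=
      fun c i => by rw [← Eig_smul, Dw, sub_sub_cancel]
    simp only [Pw, e, sum_sub_distrib, ← mul_sum, h, sum_const, card_univ, nsmul_eq_mul]
    rw [pow_succ]
    generalize (1 - l / Fintype.card ι) ^ k = c
    field_simp

theorem Eig_kern [Nonempty ι] {l : ℝ} (h : ∀ x, ∑ i, Dw W i f x = l * f x)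
    {Q : ι → Matrix (ι → Bool) (ι → Bool) ℝ} (hQ : ∀ i f, (Q i).mulVec f = Qw W i f) (t : ℝ)
    (x : ι → Bool) :
    (NormedSpace.exp (t • ∑ i, (Q i - 1))).mulVec f x = exp (-(t * l)) * f x := by
  have hn := (card_pos' (ι := ι)).ne'
  have a1 := Bot_series hQ t f x
  simp only [Eig_iter h] at a1
  generalize (NormedSpace.exp (t • ∑ i, (Q i - 1))).mulVec f x = K at a1 ⊢
  generalize (Fintype.card ι : ℝ) = N at a1 hn
  have a0 : ∀ v : ℝ, HasSum (fun k : ℕ => (k.factorial : ℝ)⁻¹ * v ^ k) (exp v) := fun v => by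
    rw [Real.exp_eq_exp_ℝ]
    exact NormedSpace.exp_series_hasSum_exp' (𝕂 := ℝ) v
  have a2 := (a0 (t * N * (1 - l / N))).mul_right (f x)
  have e : (fun k : ℕ => (k.factorial : ℝ)⁻¹ * (t * N * (1 - l / N)) ^ k * f x) =
      fun k : ℕ => (k.factorial : ℝ)⁻¹ * ((t * N) ^ k * ((1 - l / N) ^ k * f x)) :=
    funext fun k => by rw [mul_pow (t * N)]; ring
  rw [e] at a2
  have a3 := a1.unique a2
  rwa [show t * N * (1 - l / N) = t * N + -(t * l) by field_simp; ring, exp_add, mul_assoc,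
    mul_right_inj' (exp_pos _).ne'] at a3

end Gen

theorem Eig_odd (β : ℝ) (g : Pair n → ℝ) {f : Conf n → ℝ} (h : ∀ y, f (fun j => !y j) = -f y) :
    Ex (isw (Jm β g) fun _ => 0) f = 0 := by
  have hs : ∀ b, spin (!b) = -spin b := fun b => by cases b <;> simp
  have hi : Function.Involutive fun (y : Conf n) j => !y j := fun y => by simp
  have a1 := Equiv.sum_comp hi.toPerm fun y => isw (Jm β g) (fun _ => 0) y * f y
  have a2 : ∀ y : Conf n, isw (Jm β g) (fun _ => 0) (fun j => !y j) =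
      isw (Jm β g) (fun _ => 0) y := fun y => by
    simp only [isw, en, hs, mul_neg, neg_mul, neg_neg, zero_mul, neg_zero]
  simp only [Function.Involutive.coe_toPerm, a2, h, mul_neg, sum_neg_distrib] at a1
  rw [Ex]
  linarith

theorem gap_le (β : ℝ) (g : Pair n → ℝ) (f : Conf n → ℝ) :
    gap β g * var β g f ≤ form β g f := by
  have hW := isw_pos (Jm β g) fun _ => 0
  have hZ := sumW_pos hW
  have v0 : ∀ F, 0 ≤ var β g F := fun F => by
    rw [var_eq]
    exact div_nonneg (Ex_nonneg hW fun _ => sq_nonneg _) hZ.le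
  have f0 : ∀ F, 0 ≤ form β g F := fun F => by
    rw [form_eq]
    exact div_nonneg (Dir_nonneg hW F) hZ.le
  rcases (v0 f).eq_or_lt with h | h
  · rw [← h, mul_zero]
    exact f0 f
  · rw [← le_div_iff₀ h]
    refine csInf_le ⟨0, ?_⟩ ⟨f, h.ne', rfl⟩
    rintro r ⟨F, -, rfl⟩
    exact div_nonneg (f0 F) (v0 F)

theorem Eig_gap (β : ℝ) (g : Pair n → ℝ) {f : Conf n → ℝ}
    (h : Ex (isw (Jm β g) fun _ => 0) f = 0) :
    gap β g * Ex (isw (Jm β g) fun _ => 0) (fun x => f x ^ 2) ≤ Dir (isw (Jm β g) fun _ => 0) f := by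
  have h1 := gap_le β g f
  rw [var_eq, form_eq, av, h, zero_div, ← mul_div_assoc,
    div_le_div_iff_of_pos_right (sumW_pos (isw_pos (Jm β g) fun _ => 0))] at h1
  simpa only [sub_zero] using h1

theorem lin_real (β : ℝ) (g : Pair n → ℝ) (a : Fin n → ℝ) :
    gap β g * ∑ x, gibbs β g x * (∑ i, a i * sp (x i)) ^ 2 ≤ ∑ i, a i ^ 2 := by
  have hW := isw_pos (Jm β g) fun _ => 0
  have hZ := sumW_pos hW
  have hs : ∀ b, sp (!b) = -sp b := fun b => by cases b <;> simp [sp]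
  have h1 := Eig_gap β g (f := fun x => ∑ i, a i * sp (x i)) (Eig_odd β g fun y => by
    simp only [hs, mul_neg, sum_neg_distrib])
  have h2 : ∀ i x, dd i (fun x : Conf n => ∑ j, a j * sp (x j)) x = a i := fun i x => by
    rw [dd, ← sum_sub_distrib, sum_eq_single i]
    · simp only [Function.update_self, sp]
      norm_num
    · intro j _ hj
      rw [Function.update_of_ne hj, Function.update_of_ne hj, sub_self]
    · simp
  have h3 : Dir (isw (Jm β g) fun _ => 0) (fun x => ∑ i, a i * sp (x i)) ≤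
      (∑ i, a i ^ 2) * ∑ y, isw (Jm β g) (fun _ => 0) y := by
    rw [Dir, sum_mul]
    refine sum_le_sum fun i _ => ?_
    rw [Ex_Dw_sq hW, ← Ex_const]
    refine Ex_mono hW fun x => ?_
    rw [h2]
    nlinarith [mul_nonneg (sq_nonneg (mw (isw (Jm β g) fun _ => 0) i x)) (sq_nonneg (a i))]
  have h4 : ∑ x, gibbs β g x * (∑ i, a i * sp (x i)) ^ 2 = Ex (isw (Jm β g) fun _ => 0)
      (fun x => (∑ i, a i * sp (x i)) ^ 2) / ∑ y, isw (Jm β g) (fun _ => 0) y := by
    rw [Ex, sum_div]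
    exact sum_congr rfl fun z _ => by rw [gibbs_eq]; ring
  rw [h4, ← mul_div_assoc, div_le_iff₀ hZ]
  exact h1.trans h3

theorem exists_eig (hn : 0 < n) (β : ℝ) (g : Pair n → ℝ) : ∃ f : Conf n → ℝ, f ≠ 0 ∧
    Ex (isw (Jm β g) fun _ => 0) f = 0 ∧
      ∀ x, ∑ i, Dw (isw (Jm β g) fun _ => 0) i f x = gap β g * f x := by
  have hW := isw_pos (Jm β g) fun _ => 0
  have hZ := sumW_pos hW
  have hs : ∀ b, spin (!b) = -spin b := fun b => by cases b <;> simp
  obtain ⟨f, h1, h2, h3⟩ := Eig_min hW (f := fun x => spin (x ⟨0, hn⟩))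
    (Eig_odd β g fun y => hs _) (by simpa only [spin_sq, Ex_const, one_mul] using hZ.ne')
  have h4 : Dir (isw (Jm β g) fun _ => 0) f ≤ gap β g := by
    refine le_csInf ⟨_, fun x => spin (x ⟨0, hn⟩), by rw [var_spin]; exact one_ne_zero, rfl⟩ ?_
    rintro r ⟨F, hF, rfl⟩
    have v0 : 0 ≤ var β g F := by
      rw [var_eq]
      exact div_nonneg (Ex_nonneg hW fun _ => sq_nonneg _) hZ.le
    have a1 := h3 (fun x => F x - av (isw (Jm β g) fun _ => 0) F) (by
      rw [Ex_sub, Ex_const]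
      exact sub_eq_zero.2 (Ex_eq_av hW F))
    rw [Dir_sub _ hW] at a1
    rw [le_div_iff₀ (v0.lt_of_ne' hF), var_eq, form_eq, ← mul_div_assoc]
    exact div_le_div_of_nonneg_right a1 hZ.le
  have h5 := Eig_gap β g h1
  refine ⟨f, ?_, h1, Eig_crit hW (fun h => Eig_gap β g) h1 (le_antisymm ?_ h5)⟩
  · rintro rfl
    simp [Ex] at h2
  · rwa [h2, mul_one]

theorem tmix_ge (hn : 0 < n) (β : ℝ) (g : Pair n → ℝ) :
    (∀ t, 0 ≤ t → t * gap β g < log 2 → ∃ x, 1 / 4 < tv β g t x) ∧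
      log 2 / gap β g ≤ tmix β g := by
  have : Nonempty (Fin n) := ⟨⟨0, hn⟩⟩
  obtain ⟨f, h0, h1, h2⟩ := exists_eig hn β g
  obtain ⟨x, hx⟩ := Finite.exists_max fun x => |f x|
  have hp : 0 < |f x| := by
    obtain ⟨y, hy⟩ := Function.ne_iff.1 h0
    exact (abs_pos.2 hy).trans_le (hx y)
  have key : ∀ t, 0 ≤ t → t * gap β g < log 2 → ∃ x, 1 / 4 < tv β g t x := by
    intro t _ ht
    refine ⟨x, ?_⟩
    have a3 := Eig_kern h2 (heat_mulVec (β := β) (g := g)) t x
    have e1 : ∑ z, gibbs β g z * f z = 0 := by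
      have e0 : ∑ z, gibbs β g z * f z = Ex (isw (Jm β g) fun _ => 0) f /
          ∑ y, isw (Jm β g) (fun _ => 0) y := by
        rw [Ex, sum_div]
        exact sum_congr rfl fun z _ => by rw [gibbs_eq]; ring
      rw [e0, h1, zero_div]
    have e : exp (-(t * gap β g)) * f x = ∑ z, (kern β g t x z - gibbs β g z) * f z := by
      simp only [sub_mul, sum_sub_distrib, e1, sub_zero]
      exact a3.symm
    have a4 : exp (-(t * gap β g)) * |f x| ≤ 2 * tv β g t x * |f x| := by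
      rw [← abs_of_pos (exp_pos (-(t * gap β g))), ← abs_mul, e, tv, mul_div_cancel₀ _ two_ne_zero,
        sum_mul]
      exact (abs_sum_le_sum_abs _ _).trans (sum_le_sum fun z _ => (abs_mul _ _).trans_le
        (mul_le_mul_of_nonneg_left (hx z) (abs_nonneg _)))
    have a5 := le_of_mul_le_mul_right a4 hp
    have a6 := exp_lt_exp.2 (neg_lt_neg ht)
    rw [exp_neg, exp_log two_pos] at a6
    linarith
  refine ⟨key, le_csInf (Bot_mix hn β g) fun t ht => ?_⟩
  by_contra hc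
  obtain ⟨y, hy⟩ := key t ht.1 ((lt_div_iff₀ (gap_pos hn β g)).1 (not_le.1 hc))
  exact absurd (ht.2 y) (not_le.2 hy)

end Vale.Agent.P150C
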