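import Vale.Agent.P150C.Defs

/-! The Moebius map `g ↦ 1 / (z - g)` near its parabolic point.

Write `m = mm α`, `m' = m⁻¹`, `μ = m - m'`. Facts: `normSq m = 1 - 2 α + 2 α ^ 2 ∈ [1 / 2, 1 - α]`, `m'.im = α / normSq m ≥ α`,
`‖m'‖ ≤ 2`, `‖μ‖ = ‖m - 1‖ ‖m + 1‖ / ‖m‖ ≤ 4 α`. For `g.im ≤ 0`: `α ≤ ‖g - m'‖` (`Complex.abs_im_le_norm`),
`Wc g = 1 - μ / (g - m')`, `‖g / (g - m')‖ ≤ 3 / α`. In `Wc_diff` put `P = g - m'`, `Q = t g + a - m'`, `e = Q - P`,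
`p = μ g / P ^ 2`, `q = μ / P ^ 2`; the difference is `μ e / (P Q)`, the remainder is `- μ (e / P) ^ 2 / Q`, and
`‖e / P‖ ≤ 3 (|t - 1| + |a|) / α`. `close_im`: `(g / (1 - g)).im = g.im / normSq (1 - g)` and `‖1 - g‖ ≤ 2 α`. -/

namespace Vale.Agent.P150C

variable {α : ℝ} {g : ℂ}

theorem Mob_nsq (α : ℝ) : Complex.normSq (mm α) = 1 - 2 * α + 2 * α ^ 2 := by
  simp only [mm, Complex.normSq_mk]
  ring

theorem Mob_pos (α : ℝ) : 1 / 2 ≤ Complex.normSq (mm α) := by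
  rw [Mob_nsq]
  nlinarith [sq_nonneg (2 * α - 1)]

theorem Mob_ne (α : ℝ) : mm α ≠ 0 := fun h => by
  have := Mob_pos α
  rw [h, map_zero] at this
  linarith

theorem Mob_im (h0 : 0 < α) (h1 : α ≤ 1 / 2) : α < ((mm α)⁻¹).im := by
  have h2 := Mob_pos α
  rw [Complex.inv_im, lt_div_iff₀ (by linarith), Mob_nsq]
  simp only [mm, neg_neg]
  nlinarith [mul_pos h0 h0]

theorem Mob_inv (α : ℝ) : ‖(mm α)⁻¹‖ ≤ 3 / 2 := by
  have h2 := Mob_pos α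
  rw [Complex.normSq_eq_norm_sq] at h2
  have h3 := norm_pos_iff.2 (Mob_ne α)
  rw [norm_inv, inv_le_comm₀ h3 (by norm_num)]
  nlinarith

theorem Mob_one (h0 : 0 < α) : ‖mm α - 1‖ ≤ 3 / 2 * α := by
  refine abs_le_of_sq_le_sq' ?_ (by positivity) |>.2
  rw [← Complex.normSq_eq_norm_sq, Complex.normSq_apply]
  simp only [mm, Complex.sub_re, Complex.sub_im, Complex.one_re, Complex.one_im]
  nlinarith [mul_pos h0 h0]

theorem Mob_mu (h0 : 0 < α) : ‖mm α - (mm α)⁻¹‖ ≤ 4 * α := by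
  have e : mm α - (mm α)⁻¹ = (mm α - 1) * (1 + (mm α)⁻¹) := by
    have := Mob_ne α
    field_simp
    ring
  have h2 : ‖1 + (mm α)⁻¹‖ ≤ 5 / 2 := (norm_add_le _ _).trans (by
    rw [norm_one]; linarith [Mob_inv α])
  rw [e, norm_mul]
  calc _ ≤ 3 / 2 * α * (5 / 2) := by gcongr; exact Mob_one h0
    _ ≤ _ := by linarith

theorem Mob_den (h0 : 0 < α) (h1 : α ≤ 1 / 2) (hg : g.im ≤ 0) : α ≤ ‖g - (mm α)⁻¹‖ := by
  refine le_trans ?_ (Complex.abs_im_le_norm _)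
  rw [Complex.sub_im, abs_sub_comm]
  exact le_trans (by linarith [Mob_im h0 h1]) (le_abs_self _)

theorem Mob_den' (h0 : 0 < α) (h1 : α ≤ 1 / 2) (hg : g.im ≤ 0) : g - (mm α)⁻¹ ≠ 0 :=
  norm_pos_iff.1 (h0.trans_le (Mob_den h0 h1 hg))

theorem Mob_W (h0 : 0 < α) (h1 : α ≤ 1 / 2) (hg : g.im ≤ 0) :
    Wc α g = 1 - (mm α - (mm α)⁻¹) / (g - (mm α)⁻¹) := by
  rw [Wc, one_sub_div (Mob_den' h0 h1 hg)]
  congr 1
  ring

theorem Mob_q (h0 : 0 < α) (h1 : α ≤ 1 / 2) (hg : g.im ≤ 0) :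
    ‖(mm α - (mm α)⁻¹) / (g - (mm α)⁻¹)‖ ≤ 4 := by
  have h2 := Mob_den h0 h1 hg
  rw [norm_div, div_le_iff₀ (h0.trans_le h2)]
  linarith [Mob_mu h0]

theorem zz_im (h0 : 0 < α) (h1 : α ≤ 1 / 2) : 0 < (zz α).im := by
  have := Mob_im h0 h1
  rw [zz, Complex.add_im]
  simp only [mm] at this ⊢
  linarith

theorem mm_norm (h0 : 0 < α) (h1 : α ≤ 1 / 2) : ‖mm α ^ 2‖ ≤ 1 - α := by
  rw [norm_pow, ← Complex.normSq_eq_norm_sq, Mob_nsq]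
  nlinarith

theorem Wc_norm (h0 : 0 < α) (h1 : α ≤ 1 / 2) (hg : g.im ≤ 0) : ‖Wc α g‖ ≤ 5 := by
  rw [Mob_W h0 h1 hg]
  refine (norm_sub_le _ _).trans ?_
  rw [norm_one]
  linarith [Mob_q h0 h1 hg]

theorem Wc_step (h0 : 0 < α) (h1 : α ≤ 1 / 2) (hg : g.im ≤ 0) :
    Wc α (zz α - g)⁻¹ = mm α ^ 2 * Wc α g := by
  have h2 : zz α - g ≠ 0 := fun h => by
    have h3 := congrArg Complex.im h
    rw [Complex.sub_im, Complex.zero_im] at h3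
    linarith [zz_im h0 h1]
  have h3 := Mob_ne α
  have h4 := Mob_den' h0 h1 hg
  have e1 : (zz α - g)⁻¹ - mm α = mm α * (g - mm α) * (zz α - g)⁻¹ := by
    rw [eq_mul_inv_iff_mul_eq₀ h2, sub_mul, inv_mul_cancel₀ h2, zz]
    field_simp
    ring
  have e2 : (zz α - g)⁻¹ - (mm α)⁻¹ = (mm α)⁻¹ * (g - (mm α)⁻¹) * (zz α - g)⁻¹ := by
    rw [eq_mul_inv_iff_mul_eq₀ h2, sub_mul, inv_mul_cancel₀ h2, zz]
    field_simp
    ring
  rw [Wc, Wc, e1, e2, mul_div_mul_right _ _ (inv_ne_zero h2), mul_div_mul_comm, div_inv_eq_mul, sq]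

theorem Wc_close (h0 : 0 < α) (h1 : α ≤ 1 / 2) (hg : g.im ≤ 0) (h : ‖Wc α g‖ ≤ 1 / 9) :
    ‖g - mm α‖ ≤ α / 2 := by
  have e : g - mm α = Wc α g * (g - mm α + (mm α - (mm α)⁻¹)) := by
    rw [sub_add_sub_cancel, Wc, div_mul_cancel₀ _ (Mob_den' h0 h1 hg)]
  have h2 : ‖g - mm α‖ ≤ 1 / 9 * (‖g - mm α‖ + 4 * α) := by
    conv_lhs => rw [e, norm_mul]
    gcongr
    exact (norm_add_le _ _).trans (by linarith [Mob_mu h0])
  linarith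

theorem close_im (h0 : 0 < α) (h : ‖g - mm α‖ ≤ α / 2) :
    -g.im ≤ 3 * α / 2 ∧ g ≠ 1 ∧ 1 / (8 * α) ≤ -(g / (1 - g)).im := by
  have h2 := abs_le.1 ((Complex.abs_im_le_norm _).trans h)
  rw [Complex.sub_im] at h2
  simp only [mm] at h2
  have h3 : g ≠ 1 := fun h4 => by
    rw [h4, Complex.one_im] at h2
    linarith [h2.2]
  have h4 : 1 - g ≠ 0 := sub_ne_zero.2 h3.symm
  have e : g / (1 - g) = -1 + (1 - g)⁻¹ := by
    field_simp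
    ring
  have h5 : ‖1 - g‖ ≤ 2 * α := by
    have : 1 - g = -(mm α - 1) - (g - mm α) := by ring
    rw [this]
    refine (norm_sub_le _ _).trans ?_
    rw [norm_neg]
    linarith [Mob_one h0]
  have h6 := norm_pos_iff.2 h4
  refine ⟨by linarith [h2.1], h3, ?_⟩
  rw [e, Complex.add_im, Complex.inv_im, Complex.normSq_eq_norm_sq]
  simp only [Complex.neg_im, Complex.one_im, Complex.sub_im, neg_zero, zero_add, zero_sub, neg_neg]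
  rw [← neg_div, div_le_div_iff₀ (by positivity) (by positivity)]
  nlinarith [h2.2]

theorem Wc_diff (h0 : 0 < α) (h1 : α ≤ 1 / 2) (hg : g.im ≤ 0) : ∃ p q : ℂ, ‖p‖ ≤ 12 / α ∧
    ∀ t a : ℝ, 0 ≤ t → ‖Wc α (t * g + a) - Wc α g‖ ≤ 12 * (|t - 1| + |a|) / α ∧
      ‖Wc α (t * g + a) - Wc α g - (((t - 1 : ℝ) : ℂ) * p + a * q)‖ ≤
        36 * (|t - 1| + |a|) ^ 2 / α ^ 2 := by
  have hP := Mob_den h0 h1 hg
  have hP' := Mob_den' h0 h1 hg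
  have q1 := Mob_q h0 h1 hg
  have b0 : ‖(g - (mm α)⁻¹)⁻¹‖ ≤ 1 / α := by
    rw [norm_inv, one_div]
    exact inv_anti₀ h0 hP
  have b1 : ‖g / (g - (mm α)⁻¹)‖ ≤ 3 / α := by
    have e : g / (g - (mm α)⁻¹) = 1 + (mm α)⁻¹ * (g - (mm α)⁻¹)⁻¹ := by
      rw [← div_eq_mul_inv, one_add_div hP', sub_add_cancel]
    rw [e]
    refine (norm_add_le _ _).trans ?_
    rw [norm_one, norm_mul]
    have h2 : ‖(mm α)⁻¹‖ * ‖(g - (mm α)⁻¹)⁻¹‖ ≤ 3 / 2 * (1 / α) := by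
      gcongr
      exact Mob_inv α
    have h3 : 1 ≤ 1 / α := by rw [le_div_iff₀ h0]; linarith
    have h4 : 3 / α = 3 * (1 / α) := by ring
    linarith
  refine ⟨(mm α - (mm α)⁻¹) / (g - (mm α)⁻¹) * (g / (g - (mm α)⁻¹)),
    (mm α - (mm α)⁻¹) / (g - (mm α)⁻¹) * (g - (mm α)⁻¹)⁻¹, ?_, fun t a ht => ?_⟩
  · rw [norm_mul]
    calc _ ≤ 4 * (3 / α) := by gcongr
      _ = _ := by ring
  have hg' : ((t : ℂ) * g + a).im ≤ 0 := by
    simpa using mul_nonpos_of_nonneg_of_nonpos ht hg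
  have hQ := Mob_den' h0 h1 hg'
  have q2 := Mob_q h0 h1 hg'
  rw [Mob_W h0 h1 hg, Mob_W h0 h1 hg']
  obtain ⟨r, hr⟩ : ∃ r : ℂ, r = ((t - 1 : ℝ) : ℂ) * (g / (g - (mm α)⁻¹)) + a * (g - (mm α)⁻¹)⁻¹ :=
    ⟨_, rfl⟩
  have b2 : ‖r‖ ≤ 3 * (|t - 1| + |a|) / α := by
    rw [hr]
    refine (norm_add_le _ _).trans ?_
    rw [norm_mul, norm_mul, Complex.norm_real, Complex.norm_real, Real.norm_eq_abs,
      Real.norm_eq_abs]
    calc _ ≤ |t - 1| * (3 / α) + |a| * (3 / α) := by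
          gcongr
          exact b0.trans (by gcongr; norm_num)
      _ = _ := by ring
  generalize mm α - (mm α)⁻¹ = μ at *
  generalize (mm α)⁻¹ = m at *
  have e1 : 1 - μ / (t * g + a - m) - (1 - μ / (g - m)) = μ / (t * g + a - m) * r := by
    rw [hr]
    push_cast
    field_simp
    ring
  have e2 : μ / (t * g + a - m) * r - (((t - 1 : ℝ) : ℂ) * (μ / (g - m) * (g / (g - m))) +
      a * (μ / (g - m) * (g - m)⁻¹)) = -(μ / (t * g + a - m) * r ^ 2) := by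
    rw [hr]
    push_cast
    field_simp
    ring
  rw [e1, e2, norm_neg, norm_mul, norm_mul, norm_pow]
  refine ⟨?_, ?_⟩
  · calc _ ≤ 4 * (3 * (|t - 1| + |a|) / α) := by gcongr
      _ = _ := by ring
  · calc _ ≤ 4 * (3 * (|t - 1| + |a|) / α) ^ 2 := by gcongr
      _ = _ := by ring

theorem Wc_meas (α : ℝ) : Measurable (Wc α) :=
  (measurable_id.sub_const _).div (measurable_id.sub_const _)

end Vale.Agent.P150C
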