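import Vale.Agent.P150C.Mob

/-! One step of the recursion.

`One_sq`: for `|l| ≤ 1 / 4`, `∫ exp (l y ^ 2) = (1 - 2 l) ^ (-1 / 2) ≤ exp (l + 4 l ^ 2)` (copy the proof of
`Vale.Agent.P150.int_exp_sq`, now for both signs), then `integral_fintype_prod_eq_prod`; integrability from
positivity of the integral (`Integrable.of_integral_ne_zero`).
`One_exp`: with `X = ∑ c i.succ ^ 2`, `l = 1 / (4 √N)`: `√N y / 4 = l |X - N| + √2 |c 0| / 4`,
`√2 |c 0| / 4 ≤ c 0 ^ 2 / 8 + 1 / 4`, `exp |u| ≤ exp u + exp (-u)`; `One_sq` with `Fin.cons (1 / 8) fun _ => ± l`; both terms are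
at most `exp 1 ≤ 3`.
`one_step`: with `u` the exponent, `exp u ≤ 1 + u + u ^ 2 exp |u|`; `Wc_diff` gives
`u ≤ (t - 1) (ξ p).re + a (ξ q).re + 36 ‖ξ‖ y ^ 2 / α ^ 2` and `|u| ≤ 12 ‖ξ‖ y / α ≤ √N y / 8`;
`y ^ 2 ≤ 128 / N * exp (√N y / 8)` (from `s ^ 2 / 2 ≤ exp s`); `∫ t = d / N`, `∫ a = 0`
(`integral_comp_eval` or `measurePreserving_eval`, `integral_id_gaussianReal`, `variance_id_gaussianReal`);
use `integral_mono_of_nonneg` with the integrable majorant and `1 + s ≤ exp s`. -/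

namespace Vale.Agent.P150C

open Finset Real MeasureTheory ProbabilityTheory Vale.Agent.P150

theorem One_int {l : ℝ} (h1 : l ≤ 1 / 4) :
    0 < ∫ y, exp (l * y ^ 2) ∂gaussianReal 0 1 ∧
      ∫ y, exp (l * y ^ 2) ∂gaussianReal 0 1 ≤ exp (l + 4 * l ^ 2) := by
  have e : ∫ y, exp (l * y ^ 2) ∂gaussianReal 0 1 = (√(2 * π))⁻¹ * √(π / (1 / 2 - l)) := by
    rw [integral_gaussianReal_eq_integral_smul one_ne_zero, ← integral_gaussian,
      ← integral_const_mul]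
    refine integral_congr_ae (Filter.Eventually.of_forall fun y => ?_)
    simp only [gaussianPDFReal, NNReal.coe_one, mul_one, smul_eq_mul, sub_zero, mul_assoc, ← exp_add]
    congr 2
    ring
  have h2 : 0 < 1 / 2 - l := by linarith
  have h3 := pi_pos
  rw [e]
  refine ⟨by positivity, ?_⟩
  rw [← div_eq_inv_mul, ← sqrt_div (by positivity), sqrt_le_left (exp_pos _).le, ← exp_nat_mul,
    div_div, div_le_iff₀ (by positivity)]
  have h4 := add_one_le_exp (((2 : ℕ) : ℝ) * (l + 4 * l ^ 2))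
  have h5 : 1 ≤ ((2 : ℕ) * (l + 4 * l ^ 2) + 1) * ((1 / 2 - l) * 2) := by
    push_cast
    nlinarith [mul_nonneg (sq_nonneg l) (sub_nonneg.2 h1)]
  nlinarith [mul_le_mul_of_nonneg_right h4 (by positivity : 0 ≤ (1 / 2 - l) * 2)]

theorem One_sq {ι : Type} [Fintype ι] (l : ι → ℝ) (hl : ∀ i, |l i| ≤ 1 / 4) :
    Integrable (fun c : ι → ℝ => exp (∑ i, l i * c i ^ 2)) (gm ι) ∧
      ∫ c, exp (∑ i, l i * c i ^ 2) ∂gm ι ≤ exp (∑ i, (l i + 4 * l i ^ 2)) := by
  have h := fun i => One_int ((le_abs_self _).trans (hl i))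
  simp only [exp_sum]
  refine ⟨Integrable.fintype_prod (f := fun i y => exp (l i * y ^ 2))
    fun i => .of_integral_ne_zero (h i).1.ne', ?_⟩
  rw [integral_fintype_prod_eq_prod (f := fun i y => exp (l i * y ^ 2))]
  exact prod_le_prod (fun i _ => (h i).1.le) fun i _ => (h i).2

theorem One_pm (d : ℕ) {l : ℝ} (hl : |l| ≤ 1 / 4) (k : ℝ) :
    Integrable (fun c : Fin (d + 1) → ℝ =>
      exp (k + (1 / 8 * c 0 ^ 2 + l * ∑ i : Fin d, c i.succ ^ 2))) (gm (Fin (d + 1))) ∧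
    ∫ c, exp (k + (1 / 8 * c 0 ^ 2 + l * ∑ i : Fin d, c i.succ ^ 2)) ∂gm (Fin (d + 1)) ≤
      exp (k + (3 / 16 + d * (l + 4 * l ^ 2))) := by
  obtain ⟨h1, h2⟩ := One_sq (ι := Fin (d + 1)) (Fin.cons (1 / 8) fun _ => l)
    (Fin.cases (by norm_num [abs_of_pos]) fun _ => hl)
  simp only [Fin.sum_univ_succ, Fin.cons_zero, Fin.cons_succ, ← mul_sum, sum_const, card_univ,
    Fintype.card_fin, nsmul_eq_mul] at h1 h2
  simp only [exp_add k]
  rw [integral_const_mul]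
  refine ⟨h1.const_mul _, mul_le_mul_of_nonneg_left (h2.trans_eq ?_) (exp_pos k).le⟩
  norm_num

theorem One_exp {N : ℝ} {d : ℕ} (hN : 1 ≤ N) (hd : (d : ℝ) ≤ N) (hd' : N - d ≤ √N) :
    Integrable (fun c : Fin (d + 1) → ℝ =>
      exp (√N * (|(∑ i : Fin d, c i.succ ^ 2) / N - 1| + |√2 * c 0 / √N|) / 4)) (gm (Fin (d + 1))) ∧
    ∫ c, exp (√N * (|(∑ i : Fin d, c i.succ ^ 2) / N - 1| + |√2 * c 0 / √N|) / 4)
      ∂gm (Fin (d + 1)) ≤ 6 := by
  have s1 : 1 ≤ √N := one_le_sqrt.2 hN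
  have s2 : √N * √N = N := mul_self_sqrt (by linarith)
  obtain ⟨l, hl⟩ : ∃ l : ℝ, l = 1 / (4 * √N) := ⟨_, rfl⟩
  have l0 : 0 < l := by rw [hl]; positivity
  have l1 : l * √N = 1 / 4 := by rw [hl]; field_simp
  have l2 : l ≤ 1 / 4 := (le_mul_of_one_le_right l0.le s1).trans_eq l1
  have l3 : d * l ^ 2 ≤ 1 / 16 := by
    have e : N * l ^ 2 = (l * √N) ^ 2 := by rw [mul_pow, sq √N, s2, mul_comm]
    linarith [mul_le_mul_of_nonneg_right hd (sq_nonneg l), l1 ▸ e]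
  obtain ⟨i1, j1⟩ := One_pm d ((abs_of_pos l0).trans_le l2) (1 / 4 - l * N)
  obtain ⟨i2, j2⟩ := One_pm d ((abs_neg l).trans_le ((abs_of_pos l0).trans_le l2)) (1 / 4 + l * N)
  have hb : ∀ c : Fin (d + 1) → ℝ,
      exp (√N * (|(∑ i : Fin d, c i.succ ^ 2) / N - 1| + |√2 * c 0 / √N|) / 4) ≤
      exp (1 / 4 - l * N + (1 / 8 * c 0 ^ 2 + l * ∑ i : Fin d, c i.succ ^ 2)) +
      exp (1 / 4 + l * N + (1 / 8 * c 0 ^ 2 + -l * ∑ i : Fin d, c i.succ ^ 2)) := fun c => by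
    generalize (∑ i : Fin d, c i.succ ^ 2) = X
    have e1 : √N * |X / N - 1| = 4 * (l * |X - N|) := by
      rw [div_sub_one (by linarith), abs_div, abs_of_pos (by linarith : 0 < N), hl]
      field_simp
      rw [sq, s2]
    have e2 : √N * |√2 * c 0 / √N| = √2 * |c 0| := by
      rw [abs_div, abs_mul, abs_of_nonneg (sqrt_nonneg 2), abs_of_nonneg (sqrt_nonneg N)]
      field_simp
    have e3 : √2 * |c 0| ≤ c 0 ^ 2 / 2 + 1 := by
      have := sq_nonneg (|c 0| - √2)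
      rw [sub_sq, sq_abs, sq_sqrt zero_le_two] at this
      linarith
    rw [mul_add, e1, e2]
    rcases abs_cases (X - N) with h | h
    · exact le_add_of_le_of_nonneg (exp_le_exp.2 (by rw [h.1]; linarith)) (exp_pos _).le
    · exact le_add_of_nonneg_of_le (exp_pos _).le (exp_le_exp.2 (by rw [h.1]; linarith))
  have i3 := (i1.add i2).mono' (g := fun c : Fin (d + 1) → ℝ => _) (f := fun c : Fin (d + 1) → ℝ =>
    exp (√N * (|(∑ i : Fin d, c i.succ ^ 2) / N - 1| + |√2 * c 0 / √N|) / 4))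
    (Continuous.aestronglyMeasurable (by fun_prop))
    (Filter.Eventually.of_forall fun c => (norm_of_nonneg (exp_pos _).le).trans_le (hb c))
  refine ⟨i3, (integral_mono i3 (i1.add i2) hb).trans ?_⟩
  rw [integral_add' i1 i2]
  have k1 := mul_le_mul_of_nonneg_left hd l0.le
  have k2 := mul_le_mul_of_nonneg_left hd' l0.le
  have k3 := j1.trans (exp_le_exp.2 (show _ ≤ (1 : ℝ) by linarith))
  have k4 := j2.trans (exp_le_exp.2 (show _ ≤ (1 : ℝ) by linarith))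
  linarith [exp_one_lt_d9]

theorem One_taylor (u : ℝ) : exp u ≤ 1 + u + u ^ 2 * exp |u| := by
  have h1 := add_one_le_exp u
  have h2 := mul_le_mul_of_nonneg_left (add_one_le_exp (-u)) (exp_pos u).le
  rw [← exp_add, add_neg_cancel, exp_zero] at h2
  rcases le_total 0 u with h | h
  · rw [abs_of_nonneg h]
    linarith [mul_le_mul_of_nonneg_left h2 h]
  · linarith [mul_le_mul_of_nonpos_left h1 h,
      mul_le_mul_of_nonneg_left (one_le_exp (abs_nonneg u)) (sq_nonneg u)]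

theorem One_pt {α N x y u v : ℝ} (h0 : 0 < α) (hN : 1 ≤ N) (hx : 0 ≤ x) (hy : 0 ≤ y)
    (hξ : 96 * x ≤ α * √N) (h1 : |u| ≤ x * (12 * y / α)) (h2 : u ≤ v + x * (36 * y ^ 2 / α ^ 2)) :
    exp u ≤ 1 + v + 128 * (36 * x + 144 * x ^ 2) / (α ^ 2 * N) * exp (√N * y / 4) := by
  have s0 : 0 ≤ √N * y / 8 := by positivity
  have a1 : |u| ≤ √N * y / 8 := by
    refine h1.trans ?_
    rw [← mul_div_assoc, div_le_iff₀ h0]
    linarith [mul_le_mul_of_nonneg_right hξ hy]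
  have a2 : y ^ 2 ≤ 128 / N * exp (√N * y / 8) := by
    have h3 := quadratic_le_exp_of_nonneg s0
    rw [div_pow, mul_pow, sq_sqrt (by linarith)] at h3
    rw [div_mul_eq_mul_div, le_div_iff₀ (by linarith)]
    linarith
  have e : exp (√N * y / 4) = exp (√N * y / 8) * exp (√N * y / 8) := by
    rw [← exp_add]
    congr 1
    ring
  have a3 : y ^ 2 * exp (√N * y / 8) ≤ 128 / N * exp (√N * y / 4) := by
    rw [e, ← mul_assoc]
    exact mul_le_mul_of_nonneg_right a2 (exp_pos _).le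
  have a4 : y ^ 2 ≤ 128 / N * exp (√N * y / 4) :=
    (le_mul_of_one_le_right (sq_nonneg y) (one_le_exp s0)).trans a3
  have a5 : u ^ 2 * exp |u| ≤ (x * (12 * y / α)) ^ 2 * exp (√N * y / 8) :=
    mul_le_mul ((sq_abs u).symm.trans_le (pow_le_pow_left₀ (abs_nonneg u) h1 2)) (exp_le_exp.2 a1)
      (exp_pos _).le (sq_nonneg _)
  have a6 := mul_le_mul_of_nonneg_left a3 (by positivity : 0 ≤ 144 * x ^ 2 / α ^ 2)
  have a7 := mul_le_mul_of_nonneg_left a4 (by positivity : 0 ≤ 36 * x / α ^ 2)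
  have e1 : 128 * (36 * x + 144 * x ^ 2) / (α ^ 2 * N) * exp (√N * y / 4) =
      36 * x / α ^ 2 * (128 / N * exp (√N * y / 4)) +
        144 * x ^ 2 / α ^ 2 * (128 / N * exp (√N * y / 4)) := by ring
  have e2 : (x * (12 * y / α)) ^ 2 * exp (√N * y / 8) =
      144 * x ^ 2 / α ^ 2 * (y ^ 2 * exp (√N * y / 8)) := by ring
  have e3 : x * (36 * y ^ 2 / α ^ 2) = 36 * x / α ^ 2 * y ^ 2 := by ring
  linarith [One_taylor u]

theorem one_step {α N : ℝ} {d : ℕ} (h0 : 0 < α) (h1 : α ≤ 1 / 2) (hN : 1 ≤ N) (hd : (d : ℝ) ≤ N)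
    (hd' : N - d ≤ √N) {g : ℂ} (hg : g.im ≤ 0) {ξ : ℂ} (hξ : 96 * ‖ξ‖ ≤ α * √N) :
    ∫ c, exp ((ξ * (Wc α ((((∑ i : Fin d, c i.succ ^ 2) / N : ℝ) : ℂ) * g +
      ((√2 * c 0 / √N : ℝ) : ℂ)) - Wc α g)).re) ∂gm (Fin (d + 1)) ≤
      exp (2 ^ 17 * ‖ξ‖ ^ 2 / (α ^ 2 * N) + ‖ξ‖ * (12 * (N - d) / (α * N) + 2 ^ 15 / (α ^ 2 * N))) := by
  obtain ⟨p, q, hp, hW⟩ := Wc_diff h0 h1 hg
  obtain ⟨i0, j0⟩ := One_exp hN hd hd'
  have N0 : 0 < N := by linarith
  have m2 : MemLp (fun y : ℝ => y) 2 (gaussianReal 0 1) := memLp_id_gaussianReal' 2 (by simp)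
  have v2 : ∫ y : ℝ, y ^ 2 ∂gaussianReal 0 1 = 1 :=
    (variance_of_integral_eq_zero measurable_id'.aemeasurable integral_id_gaussianReal).symm.trans
      variance_fun_id_gaussianReal
  have i1 : ∀ i, Integrable (fun c : Fin (d + 1) → ℝ => c i ^ 2) (gm (Fin (d + 1))) := fun i =>
    integrable_comp_eval (μ := fun _ => gaussianReal 0 1) (i := i) m2.integrable_sq
  have j1 : ∀ i, ∫ c, c i ^ 2 ∂gm (Fin (d + 1)) = 1 := fun i =>
    (integral_comp_eval (μ := fun _ => gaussianReal 0 1) (i := i)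
      m2.integrable_sq.aestronglyMeasurable).trans v2
  have i2 : Integrable (fun c : Fin (d + 1) → ℝ => c 0) (gm (Fin (d + 1))) :=
    integrable_eval (m2.integrable one_le_two)
  have j2 : ∫ c, c 0 ∂gm (Fin (d + 1)) = 0 := integral_eval.trans integral_id_gaussianReal
  have i3 : Integrable (fun c : Fin (d + 1) → ℝ => (∑ i : Fin d, c i.succ ^ 2) / N)
      (gm (Fin (d + 1))) := (integrable_finsetSum _ fun i _ => i1 _).div_const N
  have i4 : Integrable (fun c : Fin (d + 1) → ℝ =>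
      ((∑ i : Fin d, c i.succ ^ 2) / N - 1) * (ξ * p).re) (gm (Fin (d + 1))) :=
    (i3.sub (integrable_const 1)).mul_const _
  have i5 : Integrable (fun c : Fin (d + 1) → ℝ => √2 * c 0 / √N * (ξ * q).re)
      (gm (Fin (d + 1))) := ((i2.const_mul _).div_const _).mul_const _
  have i6 : Integrable (fun c : Fin (d + 1) → ℝ =>
      ((∑ i : Fin d, c i.succ ^ 2) / N - 1) * (ξ * p).re + √2 * c 0 / √N * (ξ * q).re)
      (gm (Fin (d + 1))) := i4.add i5
  have i7 : Integrable (fun c : Fin (d + 1) → ℝ => 1 +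
      (((∑ i : Fin d, c i.succ ^ 2) / N - 1) * (ξ * p).re + √2 * c 0 / √N * (ξ * q).re))
      (gm (Fin (d + 1))) := (integrable_const 1).add i6
  have i8 := i0.const_mul (128 * (36 * ‖ξ‖ + 144 * ‖ξ‖ ^ 2) / (α ^ 2 * N))
  refine (integral_mono_of_nonneg (Filter.Eventually.of_forall fun c => (exp_pos _).le) (i7.add i8)
    (Filter.Eventually.of_forall fun c => ?_)).trans ?_
  · obtain ⟨b1, b2⟩ := hW ((∑ i : Fin d, c i.succ ^ 2) / N) (√2 * c 0 / √N) (by positivity)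
    refine One_pt h0 hN (norm_nonneg ξ) (by positivity) hξ ((Complex.abs_re_le_norm _).trans
      ((norm_mul_le _ _).trans (mul_le_mul_of_nonneg_left b1 (norm_nonneg ξ)))) ?_
    have b3 := (Complex.re_le_norm _).trans
      ((norm_mul_le ξ _).trans (mul_le_mul_of_nonneg_left b2 (norm_nonneg ξ)))
    rw [mul_sub ξ (_ - _), mul_add, mul_left_comm ξ _ p, mul_left_comm ξ _ q, Complex.sub_re,
      Complex.add_re, Complex.re_ofReal_mul, Complex.re_ofReal_mul] at b3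
    linarith
  · simp only [Pi.add_apply]
    rw [integral_add i7 i8, integral_add (integrable_const 1) i6, integral_add i4 i5,
      integral_const_mul, integral_mul_const, integral_mul_const,
      integral_sub i3 (integrable_const 1), integral_div, integral_div, integral_const_mul, j2,
      integral_finsetSum _ fun i _ => i1 _]
    simp only [j1, integral_const, probReal_univ, smul_eq_mul, one_mul, mul_one, sum_const,
      card_univ, Fintype.card_fin, nsmul_eq_mul, mul_zero, zero_div, zero_mul, add_zero]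
    refine le_trans ?_ (add_one_le_exp _)
    have c1 := mul_le_mul_of_nonneg_left j0
      (by positivity : 0 ≤ 128 * (36 * ‖ξ‖ + 144 * ‖ξ‖ ^ 2) / (α ^ 2 * N))
    have c2 := mul_le_mul_of_nonneg_left (abs_le.1 ((Complex.abs_re_le_norm _).trans
      ((norm_mul_le ξ p).trans (mul_le_mul_of_nonneg_left hp (norm_nonneg ξ))))).1
      (sub_nonneg.2 ((div_le_one N0).2 hd))
    have c3 : 0 ≤ ‖ξ‖ / (α ^ 2 * N) := by positivity
    have c4 : 0 ≤ ‖ξ‖ ^ 2 / (α ^ 2 * N) := by positivity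
    have e1 : ‖ξ‖ * (12 * (N - d) / (α * N) + 2 ^ 15 / (α ^ 2 * N)) =
        (1 - d / N) * (‖ξ‖ * (12 / α)) + 2 ^ 15 * (‖ξ‖ / (α ^ 2 * N)) := by
      field_simp
    have e2 : 128 * (36 * ‖ξ‖ + 144 * ‖ξ‖ ^ 2) / (α ^ 2 * N) * 6 =
        27648 * (‖ξ‖ / (α ^ 2 * N)) + 110592 * (‖ξ‖ ^ 2 / (α ^ 2 * N)) := by ring
    rw [e1, mul_div_assoc (2 ^ 17 : ℝ)]
    linarith

end Vale.Agent.P150C
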