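import Vale.Agent.P150C.Defs

/-! Linear algebra of the resolvent.

`Res_im`: for complex `y`, `(star y ⬝ᵥ Mz *ᵥ y).im = z.im * ∑ ‖y k‖ ^ 2` (the real symmetric part gives a real number:
it equals its conjugate after `Finset.sum_comm`). So `Mz *ᵥ y = 0 → y = 0`, `Mz` is invertible
(`Matrix.mulVec_injective_iff_isUnit`, `Matrix.mul_nonsing_inv`). `res_of_eq`: injectivity gives `y = Mz⁻¹ *ᵥ cx u`.
`ward`: `star y ⬝ᵥ cx u` is the conjugate of `res`. All identities below follow from `res_of_eq` with an explicit `y`: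
rotation `y = H y₀` (`Mz (H A H) = H Mz H` with `H` mapped to complex entries);
Schur `y = c • Fin.cons 1 y'`, `y' = Mz'⁻¹ *ᵥ cx b`, `c = (z - a - res' b)⁻¹` (the denominator has positive imaginary part;
`2 * A / √(2 * N) = √2 * A / √N`); shift `y = (1 - r / N)⁻¹ • y₀` since `Mz (A + E) = Mz A - x xᵀ / N`.
`res_meas`: `Matrix.inv_def`, `Ring.inverse_eq_inv'`; the entries of the adjugate and the determinant are continuous
(`Continuous.matrix_adjugate`, `Continuous.matrix_det`). -/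

namespace Vale.Agent.P150C

open Finset Matrix Vale.Agent.P150

variable {ι : Type} [Fintype ι] [DecidableEq ι] {N : ℝ} {z : ℂ}

theorem Res_im (A : ι × ι → ℝ) (y : ι → ℂ) :
    (star y ⬝ᵥ Mz N z A *ᵥ y).im = z.im * ∑ k, ‖y k‖ ^ 2 := by
  obtain ⟨s, hs⟩ : ∃ s : ι → ι → ℝ, ∀ i j, s i j = (A (i, j) + A (j, i)) / √(2 * N) :=
    ⟨_, fun _ _ => rfl⟩
  have e : ∀ i j, (star y i * (Mz N z A i j * y j)).im = (if i = j then z.im * ‖y i‖ ^ 2 else 0) -
      s i j * ((y i).re * (y j).im) + s j i * ((y j).re * (y i).im) := fun i j => by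
    rw [Mz, Matrix.of_apply, ← hs, show s j i = s i j by rw [hs, hs, add_comm]]
    split_ifs with h
    · subst h
      simp [Complex.sq_norm, Complex.normSq_apply]
      ring
    · simp
      ring
  simp only [dotProduct, mulVec, Finset.mul_sum, Complex.im_sum, e, sum_add_distrib,
    sum_sub_distrib, sum_ite_eq, mem_univ, if_true]
  rw [Finset.sum_comm (f := fun i j => s j i * _), sub_add_cancel]

theorem Res_inj (hz : 0 < z.im) (A : ι × ι → ℝ) : Function.Injective (Mz N z A).mulVec := by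
  refine (injective_iff_map_eq_zero (Mz N z A).mulVecLin).2 fun y hy => funext fun k => ?_
  have h := Res_im (N := N) (z := z) A y
  rw [show Mz N z A *ᵥ y = 0 from hy, dotProduct_zero, Complex.zero_im, eq_comm,
    mul_eq_zero, or_iff_right hz.ne', sum_eq_zero_iff_of_nonneg fun _ _ => sq_nonneg _] at h
  simpa using h k (mem_univ k)

theorem Res_Mz (A : ι × ι → ℝ) : Mz N z A =
    z • (1 : Matrix ι ι ℂ) - (((√(2 * N))⁻¹ • (mat A + (mat A)ᵀ)).map Complex.ofRealHom) := by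
  ext i j
  simp [Mz, mat, Matrix.one_apply, div_eq_inv_mul, mul_add]

theorem Mz_mul_inv (hz : 0 < z.im) (A : ι × ι → ℝ) (v : ι → ℂ) :
    Mz N z A *ᵥ ((Mz N z A)⁻¹ *ᵥ v) = v := by
  rw [mulVec_mulVec, mul_nonsing_inv _ ((isUnit_iff_isUnit_det _).1
    (mulVec_injective_iff_isUnit.1 (Res_inj hz A))), one_mulVec]

theorem res_of_eq (hz : 0 < z.im) {A : ι × ι → ℝ} {u : ι → ℝ} {y : ι → ℂ}
    (h : Mz N z A *ᵥ y = cx u) : res N z A u = cx u ⬝ᵥ y := by
  rw [res, Res_inj hz A ((Mz_mul_inv hz A _).trans h.symm)]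

theorem ward (hz : 0 < z.im) (A : ι × ι → ℝ) (u : ι → ℝ) :
    z.im * ∑ k, ‖((Mz N z A)⁻¹ *ᵥ cx u) k‖ ^ 2 = -(res N z A u).im := by
  rw [← Res_im (N := N) A, Mz_mul_inv hz, res]
  simp [dotProduct, cx, mul_comm]

theorem res_im (hz : 0 < z.im) (A : ι × ι → ℝ) (u : ι → ℝ) : (res N z A u).im ≤ 0 := by
  exact neg_nonneg.1 ((mul_nonneg hz.le (sum_nonneg fun _ _ => sq_nonneg _)).trans_eq (ward hz A u))

theorem res_meas (N : ℝ) (z : ℂ) :
    Measurable fun p : (ι → ℝ) × (ι × ι → ℝ) => res N z p.2 p.1 := by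
  have c : Continuous fun p : (ι → ℝ) × (ι × ι → ℝ) => Mz N z p.2 :=
    continuous_matrix fun i j => by
      simp only [Mz, Matrix.of_apply]
      fun_prop
  simp only [res, dotProduct, mulVec, Matrix.inv_def, Ring.inverse_eq_inv', Matrix.smul_apply, cx,
    smul_eq_mul]
  exact Finset.measurable_sum _ fun i _ => .mul (by fun_prop) (Finset.measurable_sum _ fun j _ =>
    .mul (c.matrix_det.measurable.inv.mul (c.matrix_adjugate.matrix_elem i j).measurable)
      (by fun_prop))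

theorem res_smul (A : ι × ι → ℝ) (c : ℝ) (u : ι → ℝ) :
    res N z A (c • u) = (c : ℂ) ^ 2 * res N z A u := by
  have e : cx (c • u) = (c : ℂ) • cx u := funext fun i => by simp [cx]
  rw [res, res, e, mulVec_smul, smul_dotProduct, dotProduct_smul, smul_smul, smul_eq_mul, sq]

theorem res_rot (hz : 0 < z.im) {H : Matrix ι ι ℝ} (h1 : Hᵀ = H) (h2 : H * H = 1)
    (A : ι × ι → ℝ) (u : ι → ℝ) :
    res N z (fun p => (H * mat A * H) p.1 p.2) (H *ᵥ u) = res N z A u := by
  have e : ∀ v, cx (H *ᵥ v) = H.map Complex.ofRealHom *ᵥ cx v := fun v =>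
    funext fun i => RingHom.map_mulVec Complex.ofRealHom H v i
  have e2 : H.map Complex.ofRealHom * H.map Complex.ofRealHom = 1 := by
    rw [← Matrix.map_mul, h2, Matrix.map_one _ (map_zero _) (map_one _)]
  have e3 : Mz N z (fun p => (H * mat A * H) p.1 p.2) * H.map Complex.ofRealHom =
      H.map Complex.ofRealHom * Mz N z A := by
    rw [Res_Mz, Res_Mz, show mat (fun p : ι × ι => (H * mat A * H) p.1 p.2) = H * mat A * H from rfl,
      Matrix.sub_mul, Matrix.mul_sub, ← Matrix.map_mul, ← Matrix.map_mul]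
    simp only [transpose_mul, h1, Matrix.smul_mul, Matrix.mul_smul, Matrix.add_mul, Matrix.mul_add,
      Matrix.mul_assoc, h2, Matrix.mul_one, Matrix.one_mul]
  rw [res_of_eq hz (y := H.map Complex.ofRealHom *ᵥ ((Mz N z A)⁻¹ *ᵥ cx u))
    (by rw [mulVec_mulVec, e3, ← mulVec_mulVec, Mz_mul_inv hz, e]), e, dotProduct_mulVec,
    ← mulVec_transpose, ← transpose_map, h1, mulVec_mulVec, e2, one_mulVec, res]

theorem res_schur (hz : 0 < z.im) (hN : 0 < N) {d : ℕ} (A : Fin (d + 1) × Fin (d + 1) → ℝ) :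
    res N z A (Pi.single 0 1) = (z - (res N z (fun p : Fin d × Fin d => A (p.1.succ, p.2.succ))
      (fun i => (A (0, i.succ) + A (i.succ, 0)) / √2 / √N) + ((√2 * A (0, 0) / √N : ℝ) : ℂ)))⁻¹ := by
  obtain ⟨b, hb⟩ : ∃ b : Fin d → ℝ, b = fun i => (A (0, i.succ) + A (i.succ, 0)) / √2 / √N :=
    ⟨_, rfl⟩
  obtain ⟨B, hB⟩ : ∃ B : Fin d × Fin d → ℝ, B = fun p => A (p.1.succ, p.2.succ) := ⟨_, rfl⟩
  obtain ⟨a, ha⟩ : ∃ a : ℝ, a = √2 * A (0, 0) / √N := ⟨_, rfl⟩
  rw [← hb, ← hB, ← ha]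
  have h0 : z - (res N z B b + a) ≠ 0 := fun h => by
    have h1 := congrArg Complex.im h
    have h2 := res_im (N := N) hz B b
    simp at h1
    linarith
  have s : √(2 * N) = √2 * √N := Real.sqrt_mul zero_le_two N
  have m0 : Mz N z A 0 0 = z - a := by
    rw [Mz, Matrix.of_apply, if_pos rfl, s, ha, ← div_div, ← two_mul, mul_div_right_comm,
      Real.div_sqrt]
  have m1 : ∀ j : Fin d, Mz N z A 0 j.succ = -cx b j := fun j => by
    rw [Mz, Matrix.of_apply, if_neg (Fin.succ_ne_zero j).symm, s, hb, ← div_div, zero_sub, cx]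
  have m2 : ∀ j : Fin d, Mz N z A j.succ 0 = -cx b j := fun j => by
    rw [Mz, Matrix.of_apply, if_neg (Fin.succ_ne_zero j), s, hb, ← div_div, zero_sub, cx, add_comm]
  have m3 : ∀ i j : Fin d, Mz N z A i.succ j.succ = Mz N z B i j := fun i j => by
    simp only [Mz, Matrix.of_apply, Fin.succ_inj, hB]
  rw [res_of_eq hz (y := (z - (res N z B b + a))⁻¹ • Fin.cons 1 ((Mz N z B)⁻¹ *ᵥ cx b))]
  · simp [cx, dotProduct, Fin.sum_univ_succ]
  · rw [mulVec_smul, inv_smul_eq_iff₀ h0]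
    funext i
    rw [mulVec, dotProduct, Fin.sum_univ_succ]
    cases i using Fin.cases with
    | zero =>
      simp only [m0, m1, Fin.cons_zero, Fin.cons_succ, neg_mul, sum_neg_distrib, res, dotProduct]
      simp [cx]
      ring
    | succ i =>
      have k := congrFun (Mz_mul_inv (N := N) hz B (cx b)) i
      rw [mulVec, dotProduct] at k
      simp only [m2, m3, Fin.cons_zero, Fin.cons_succ, k]
      simp [cx]

theorem res_shift (hz : 0 < z.im) (hN : 0 < N) (A : ι × ι → ℝ) (x : ι → ℝ)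
    (h : res N z A x ≠ N) :
    res N z (A + fun p => (√(2 * N))⁻¹ * (x p.1 * x p.2)) x =
      res N z A x / (1 - res N z A x / N) := by
  have hN' : (N : ℂ) ≠ 0 := Complex.ofReal_ne_zero.2 hN.ne'
  have h0 : 1 - res N z A x / N ≠ 0 := fun k => h ((div_eq_one_iff_eq hN').1 (sub_eq_zero.1 k).symm)
  have e : Mz N z (A + fun p => (√(2 * N))⁻¹ * (x p.1 * x p.2)) =
      Mz N z A - (N : ℂ)⁻¹ • vecMulVec (cx x) (cx x) := by
    ext i j
    have k : (A (i, j) + (√(2 * N))⁻¹ * (x i * x j) + (A (j, i) + (√(2 * N))⁻¹ * (x j * x i))) /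
        √(2 * N) = (A (i, j) + A (j, i)) / √(2 * N) + N⁻¹ * (x i * x j) := by
      have k1 := Real.mul_self_sqrt (mul_pos two_pos hN).le
      have k2 := (Real.sqrt_pos.2 (mul_pos two_pos hN)).ne'
      generalize √(2 * N) = r at *
      rw [show N = r * r / 2 by linarith]
      field_simp
      ring
    simp only [Mz, Matrix.of_apply, Pi.add_apply, k, Matrix.sub_apply, Matrix.smul_apply,
      vecMulVec_apply, cx, smul_eq_mul]
    push_cast
    ring
  rw [res_of_eq hz (y := (1 - res N z A x / N)⁻¹ • (Mz N z A)⁻¹ *ᵥ cx x)]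
  · rw [dotProduct_smul, smul_eq_mul, ← res, div_eq_inv_mul (res N z A x) (1 - _)]
  · rw [mulVec_smul, inv_smul_eq_iff₀ h0, e, sub_mulVec, Mz_mul_inv hz, smul_mulVec,
      vecMulVec_mulVec, ← res, sub_smul, one_smul, op_smul_eq_smul, smul_smul, div_eq_inv_mul]

end Vale.Agent.P150C
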