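import Vale.Agent.P150C.Res
import Vale.Agent.P150C.One

/-! Exponential moments and the tail bound.

`mp_split3`: as `Vale.Agent.P150.mp_split`. `Tail_rot`: `householder u i`, `mp_rot`, `res_rot`, `res_smul`,
`MeasurePreserving.integral_comp'` or `integral_map`.
`mgf_ind`, induction on `k` for all `ξ`. Base: `Wc_norm`, `res_im`. Step with `d = d₀ + k + 1`: by `res_schur`, `Wc_step` and
`mp_split3` the integral is `∫ c, ∫ A', F (res A' (b c) + a c)` with `F h = exp (ξ m ^ 2 Wc h).re` (bounded by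
`exp (5 ‖ξ‖)` on the lower half plane, so everything is integrable; `integral_prod`); `Tail_rot` turns `res A' (b c)` into
`t c * res A' e₀`; swap the integrals (`integral_integral_swap`), write
`Wc (t g + a) = Wc g + (Wc (t g + a) - Wc g)` and use `one_step` with `ξ' = ξ m ^ 2`, `‖ξ'‖ ≤ (1 - α) ‖ξ‖` (`mm_norm`),
then the induction hypothesis for `ξ'`; `(1 - α) ^ 2 ≤ 1 - α`.
`tail`: `κ = 2⁻¹ ^ 29`, `Q = 2 ^ 23`, `q = α ^ 3 n`, `θ = q / 2 ^ 24`, `k = ⌈10 / α⌉₊`, `k α ≤ 11`, `k < √n ≤ n`, `n = d₀ + k + 1`,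
`B = k`; `5 (1 - α) ^ k ≤ 5 exp (-10) ≤ 1 / 128`. If `α / 2 < ‖g - m‖` then `1 / 9 < ‖Wc g‖` (`Wc_close`), so
`1 / 18 ≤ (ω Wc g).re` for one of `ω = 1, -1, I, -I`; Markov (`mul_meas_ge_le_integral_of_nonneg`) with `ξ = θ ω`
after `Tail_rot`; the exponent is at most `-θ (1 / 18 - 3 / 128) ≤ -θ / 32`. -/

namespace Vale.Agent.P150C

open Finset Real MeasureTheory ProbabilityTheory Matrix Vale.Agent.P150

theorem mp_split3 (n : ℕ) :
    MeasurePreserving (fun A : Fin (n + 1) × Fin (n + 1) → ℝ =>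
      ((Fin.cons (A (0, 0)) fun i : Fin n => (A (0, i.succ) + A (i.succ, 0)) / √2 : Fin (n + 1) → ℝ),
        fun p : Fin n × Fin n => A (p.1.succ, p.2.succ)))
      (gm _) ((gm (Fin (n + 1))).prod (gm (Fin n × Fin n))) := by
  have h := mp_gm (T := fun (A : Fin (n + 1) × Fin (n + 1) → ℝ) =>
    Sum.elim (Fin.cons (A (0, 0)) fun i : Fin n => (A (0, i.succ) + A (i.succ, 0)) / √2 :
      Fin (n + 1) → ℝ) fun p : Fin n × Fin n => A (p.1.succ, p.2.succ))
    (measurable_pi_lambda _ fun a => by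
      rcases a with a | a
      · refine Fin.cases ?_ (fun i => ?_) a <;>
          simp only [Sum.elim_inl, Fin.cons_zero, Fin.cons_succ] <;> fun_prop
      · simp only [Sum.elim_inr]
        fun_prop)
    fun θ => ⟨fun p => Fin.cases (Fin.cases (θ (.inl 0)) (fun j => θ (.inl j.succ) / √2) p.2)
      (fun i => Fin.cases (θ (.inl i.succ) / √2) (fun j => θ (.inr (i, j))) p.2) p.1,
      fun A => ?_, ?_⟩
  · exact (measurePreserving_sumPiEquivProdPi fun _ => gaussianReal 0 1).comp h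
  · simp only [Fintype.sum_prod_type, Fin.sum_univ_succ, Fintype.sum_sum_type, Fin.cases_zero,
      Fin.cases_succ, Sum.elim_inl, Sum.elim_inr, Fin.cons_zero, Fin.cons_succ, sum_add_distrib,
      ← add_assoc]
    congr 1
    rw [add_assoc, ← sum_add_distrib]
    congr 1
    exact sum_congr rfl fun i _ => by ring
  · simp only [Fintype.sum_prod_type, Fin.sum_univ_succ, Fintype.sum_sum_type, Fin.cases_zero,
      Fin.cases_succ, div_pow, sq_sqrt zero_le_two, sum_add_distrib, ← sum_div]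
    ring

theorem Tail_mp {X Y : Type} [MeasurableSpace X] [MeasurableSpace Y] {μ : Measure X}
    {ν : Measure Y} {T : X → Y} (h : MeasurePreserving T μ ν) {G : Y → ℝ} (hG : Measurable G) :
    ∫ x, G (T x) ∂μ = ∫ y, G y ∂ν := by
  rw [← h.map_eq, integral_map h.measurable.aemeasurable hG.aestronglyMeasurable]

theorem Tail_meas {ι : Type} [Fintype ι] [DecidableEq ι] (N : ℝ) (z : ℂ) (u : ι → ℝ) :
    Measurable fun A => res N z A u :=
  (res_meas N z).comp (measurable_const.prodMk measurable_id)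

theorem Tail_rot {ι : Type} [Fintype ι] [DecidableEq ι] {N : ℝ} {z : ℂ} (hz : 0 < z.im)
    (u : ι → ℝ) (i : ι) {F : ℂ → ℝ} (hF : Measurable F) :
    ∫ A, F (res N z A u) ∂gm (ι × ι) =
      ∫ A, F (((u ⬝ᵥ u : ℝ) : ℂ) * res N z A (Pi.single i 1)) ∂gm (ι × ι) := by
  obtain ⟨H, h1, h2, h3⟩ := householder u i
  rw [← Tail_mp (mp_rot h1 h2) (G := fun A => F (((u ⬝ᵥ u : ℝ) : ℂ) * res N z A (Pi.single i 1)))
    (hF.comp (measurable_const.mul (Tail_meas N z _)))]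
  refine integral_congr_ae (Filter.Eventually.of_forall fun A => ?_)
  beta_reduce
  rw [← res_rot hz h1 h2 A u, h3, res_smul, ← Complex.ofReal_pow,
    sq_sqrt (show 0 ≤ u ⬝ᵥ u from sum_nonneg fun _ _ => mul_self_nonneg _)]

theorem Tail_bd {α : ℝ} (h0 : 0 < α) (h1 : α ≤ 1 / 2) (ξ : ℂ) {g : ℂ} (hg : g.im ≤ 0) :
    exp ((ξ * Wc α g).re) ≤ exp (5 * ‖ξ‖) := by
  refine exp_le_exp.2 ((Complex.re_le_norm _).trans ?_)
  rw [norm_mul, mul_comm]
  exact mul_le_mul_of_nonneg_right (Wc_norm h0 h1 hg) (norm_nonneg _)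

theorem Tail_fm (α : ℝ) (ξ : ℂ) : Measurable fun g => exp ((ξ * Wc α g).re) :=
  (Complex.measurable_re.comp (measurable_const.mul (Wc_meas α))).exp

theorem Tail_int {α : ℝ} (h0 : 0 < α) (h1 : α ≤ 1 / 2) (ξ : ℂ) {X : Type} [MeasurableSpace X]
    (μ : Measure X) [IsFiniteMeasure μ] {h : X → ℂ} (hm : Measurable h) (hh : ∀ x, (h x).im ≤ 0) :
    Integrable (fun x => exp ((ξ * Wc α (h x)).re)) μ :=
  Integrable.of_bound ((Tail_fm α ξ).comp hm).aestronglyMeasurable (exp (5 * ‖ξ‖))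
    (Filter.Eventually.of_forall fun x => by
      rw [Real.norm_of_nonneg (exp_pos _).le]
      exact Tail_bd h0 h1 ξ (hh x))

theorem Tail_step {α N : ℝ} (h0 : 0 < α) (h1 : α ≤ 1 / 2) (hN : 1 ≤ N) {d : ℕ}
    (hd : (d + 1 : ℕ) ≤ N) (hd' : N - (d + 1 : ℕ) ≤ √N) (ξ : ℂ)
    (hξ : 96 * ‖ξ * mm α ^ 2‖ ≤ α * √N) :
    ∫ A, exp ((ξ * Wc α (res N (zz α) A (Pi.single 0 1))).re)
      ∂gm (Fin (d + 1 + 1) × Fin (d + 1 + 1)) ≤
    (∫ A, exp ((ξ * mm α ^ 2 * Wc α (res N (zz α) A (Pi.single 0 1))).re)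
      ∂gm (Fin (d + 1) × Fin (d + 1))) *
      exp (2 ^ 17 * ‖ξ * mm α ^ 2‖ ^ 2 / (α ^ 2 * N) +
        ‖ξ * mm α ^ 2‖ * (12 * (N - (d + 1 : ℕ)) / (α * N) + 2 ^ 15 / (α ^ 2 * N))) := by
  have hz := zz_im h0 h1
  have hN0 : 0 < N := by linarith
  have e0 : ∀ g : ℂ, g.im ≤ 0 → ξ * Wc α (zz α - g)⁻¹ = ξ * mm α ^ 2 * Wc α g := fun g hg => by
    rw [Wc_step h0 h1 hg, mul_assoc]
  generalize ξ * mm α ^ 2 = η at *
  have ha : Measurable fun c : Fin (d + 1 + 1) → ℝ => ((√2 * c 0 / √N : ℝ) : ℂ) := by fun_prop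
  have ht : Measurable fun c : Fin (d + 1 + 1) → ℝ =>
      (((∑ i : Fin (d + 1), c i.succ ^ 2) / N : ℝ) : ℂ) := by fun_prop
  have m1 : Measurable fun y : (Fin (d + 1 + 1) → ℝ) × (Fin (d + 1) × Fin (d + 1) → ℝ) =>
      res N (zz α) y.2 (fun i => y.1 i.succ / √N) + ((√2 * y.1 0 / √N : ℝ) : ℂ) :=
    ((res_meas N (zz α)).comp (Measurable.prodMk (f := fun y : (Fin (d + 1 + 1) → ℝ) ×
      (Fin (d + 1) × Fin (d + 1) → ℝ) => fun i : Fin (d + 1) => y.1 i.succ / √N)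
        (by fun_prop) measurable_snd)).add (ha.comp measurable_fst)
  have i1 : ∀ (A : Fin (d + 1) × Fin (d + 1) → ℝ) (u : Fin (d + 1) → ℝ) (a : ℝ),
      (res N (zz α) A u + a).im ≤ 0 := fun A u a => by simpa using res_im hz A u
  have i2 : ∀ (c : Fin (d + 1 + 1) → ℝ) (A : Fin (d + 1) × Fin (d + 1) → ℝ),
      ((((∑ i : Fin (d + 1), c i.succ ^ 2) / N : ℝ) : ℂ) * res N (zz α) A (Pi.single 0 1) +
        ((√2 * c 0 / √N : ℝ) : ℂ)).im ≤ 0 := fun c A => by
    rw [Complex.add_im, Complex.ofReal_im, add_zero, Complex.im_ofReal_mul]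
    exact mul_nonpos_of_nonneg_of_nonpos (by positivity) (res_im hz A _)
  calc ∫ A, exp ((ξ * Wc α (res N (zz α) A (Pi.single 0 1))).re)
        ∂gm (Fin (d + 1 + 1) × Fin (d + 1 + 1))
      = ∫ y, exp ((η * Wc α (res N (zz α) y.2 (fun i => y.1 i.succ / √N) +
          ((√2 * y.1 0 / √N : ℝ) : ℂ))).re)
          ∂(gm (Fin (d + 1 + 1))).prod (gm (Fin (d + 1) × Fin (d + 1))) := by
        refine Eq.trans (integral_congr_ae (Filter.Eventually.of_forall fun A => ?_))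
          (Tail_mp (mp_split3 (d + 1)) ((Tail_fm α η).comp m1))
        simp only [Fin.cons_zero, Fin.cons_succ]
        rw [res_schur hz hN0 A, e0 _ (i1 _ _ _)]
    _ = ∫ c, ∫ A, exp ((η * Wc α ((((∑ i : Fin (d + 1), c i.succ ^ 2) / N : ℝ) : ℂ) *
          res N (zz α) A (Pi.single 0 1) + ((√2 * c 0 / √N : ℝ) : ℂ))).re)
          ∂gm (Fin (d + 1) × Fin (d + 1)) ∂gm (Fin (d + 1 + 1)) := by
        rw [integral_prod _ (Tail_int h0 h1 η _ m1 fun y => i1 _ _ _)]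
        refine integral_congr_ae (Filter.Eventually.of_forall fun c => ?_)
        have e : (fun i : Fin (d + 1) => c i.succ / √N) ⬝ᵥ (fun i => c i.succ / √N) =
            (∑ i : Fin (d + 1), c i.succ ^ 2) / N := by
          simp only [dotProduct, ← sq, div_pow, sq_sqrt hN0.le, sum_div]
        have := Tail_rot (N := N) hz (fun i : Fin (d + 1) => c i.succ / √N) 0
          (F := fun h => exp ((η * Wc α (h + ((√2 * c 0 / √N : ℝ) : ℂ))).re))
          ((Tail_fm α η).comp (measurable_id.add measurable_const))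
        rw [e] at this
        exact this
    _ = ∫ A, ∫ c, exp ((η * Wc α ((((∑ i : Fin (d + 1), c i.succ ^ 2) / N : ℝ) : ℂ) *
          res N (zz α) A (Pi.single 0 1) + ((√2 * c 0 / √N : ℝ) : ℂ))).re)
          ∂gm (Fin (d + 1 + 1)) ∂gm (Fin (d + 1) × Fin (d + 1)) :=
        integral_integral_swap (Tail_int h0 h1 η _ (((ht.comp measurable_fst).mul
          ((Tail_meas N _ _).comp measurable_snd)).add (ha.comp measurable_fst))
            fun y => i2 y.1 y.2)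
    _ ≤ _ := by
        rw [← integral_mul_const]
        refine integral_mono_of_nonneg
          (Filter.Eventually.of_forall fun A => integral_nonneg fun c => (exp_pos _).le)
          ((Tail_int h0 h1 η _ (Tail_meas N _ _) fun A => res_im hz A _).mul_const _)
          (Filter.Eventually.of_forall fun A => ?_)
        beta_reduce
        refine le_trans (le_of_eq ?_) (mul_le_mul_of_nonneg_left
          (one_step h0 h1 hN hd hd' (res_im (N := N) hz A (Pi.single 0 1)) hξ) (exp_pos _).le)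
        rw [← integral_const_mul]
        refine integral_congr_ae (Filter.Eventually.of_forall fun c => ?_)
        beta_reduce
        rw [← exp_add, ← Complex.add_re, ← mul_add, add_sub_cancel]

theorem Tail_num {α N B D P r s : ℝ} (h0 : 0 < α) (h1 : α ≤ 1 / 2) (hN : 0 < N) (hB : 0 ≤ B)
    (hD : D ≤ B) (hP : 0 ≤ P) (hs : 0 ≤ s) (hr : 0 ≤ r) (h : s ≤ (1 - α) * r) :
    5 * P * s + 2 ^ 17 / (α ^ 3 * N) * s ^ 2 + (12 * B * α + 2 ^ 15) / (α ^ 3 * N) * s +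
      (2 ^ 17 * s ^ 2 / (α ^ 2 * N) + s * (12 * D / (α * N) + 2 ^ 15 / (α ^ 2 * N))) ≤
    5 * (P * (1 - α)) * r + 2 ^ 17 / (α ^ 3 * N) * r ^ 2 +
      (12 * B * α + 2 ^ 15) / (α ^ 3 * N) * r := by
  have a1 : (1 + α) * s ≤ r := by nlinarith [mul_nonneg (sq_nonneg α) hr]
  have a2 : (1 + α) * s ^ 2 ≤ r ^ 2 := by nlinarith
  have a3 : s * (12 * D / (α * N)) ≤ s * (12 * B / (α * N)) := by gcongr
  have a4 := mul_le_mul_of_nonneg_left h hP
  have a5 := mul_le_mul_of_nonneg_left a2 (by positivity : 0 ≤ 2 ^ 17 / (α ^ 3 * N))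
  have a6 := mul_le_mul_of_nonneg_left a1
    (by positivity : 0 ≤ (12 * B * α + 2 ^ 15) / (α ^ 3 * N))
  have e1 : 2 ^ 17 / (α ^ 3 * N) * ((1 + α) * s ^ 2) =
      2 ^ 17 / (α ^ 3 * N) * s ^ 2 + 2 ^ 17 * s ^ 2 / (α ^ 2 * N) := by field_simp
  have e2 : (12 * B * α + 2 ^ 15) / (α ^ 3 * N) * ((1 + α) * s) =
      (12 * B * α + 2 ^ 15) / (α ^ 3 * N) * s +
        (s * (12 * B / (α * N)) + s * (2 ^ 15 / (α ^ 2 * N))) := by field_simp
  rw [mul_add s]
  linarith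

theorem mgf_ind {α N B : ℝ} (h0 : 0 < α) (h1 : α ≤ 1 / 2) (hN : 1 ≤ N) (hB : B ≤ √N) (d₀ : ℕ)
    (hd : N - (d₀ + 1) ≤ B) (k : ℕ) (hk : (d₀ + k + 1 : ℝ) ≤ N) (ξ : ℂ) (hξ : 96 * ‖ξ‖ ≤ α * √N) :
    ∫ A, exp ((ξ * Wc α (res N (zz α) A (Pi.single 0 1))).re)
      ∂gm (Fin (d₀ + k + 1) × Fin (d₀ + k + 1)) ≤
      exp (5 * (1 - α) ^ k * ‖ξ‖ + 2 ^ 17 / (α ^ 3 * N) * ‖ξ‖ ^ 2 +
        (12 * B * α + 2 ^ 15) / (α ^ 3 * N) * ‖ξ‖) := by
  have hz := zz_im h0 h1
  have hN0 : 0 < N := by linarith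
  have hα : 0 ≤ 1 - α := by linarith
  have hB0 : 0 ≤ B := by linarith [Nat.cast_nonneg (α := ℝ) k]
  induction k generalizing ξ with
  | zero =>
    refine (integral_mono_of_nonneg (Filter.Eventually.of_forall fun A => (exp_pos _).le)
      (integrable_const (exp (5 * ‖ξ‖)))
      (Filter.Eventually.of_forall fun A => Tail_bd h0 h1 ξ (res_im hz A _))).trans ?_
    rw [integral_const, probReal_univ, one_smul, pow_zero, mul_one, add_assoc]
    exact exp_le_exp.2 (le_add_of_nonneg_right (by positivity))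
  | succ k ih =>
    have hs : ‖ξ * mm α ^ 2‖ ≤ (1 - α) * ‖ξ‖ := by
      rw [norm_mul, mul_comm]
      exact mul_le_mul_of_nonneg_right (mm_norm h0 h1) (norm_nonneg _)
    have hξ' : 96 * ‖ξ * mm α ^ 2‖ ≤ α * √N := by nlinarith [norm_nonneg ξ]
    have hD : N - (d₀ + k + 1 : ℕ) ≤ B := by
      push_cast
      linarith [Nat.cast_nonneg (α := ℝ) k]
    push_cast at hk
    refine (Tail_step h0 h1 hN (d := d₀ + k) (by push_cast; linarith) (hD.trans hB) ξ hξ').trans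
      ((mul_le_mul_of_nonneg_right (ih (by linarith) _ hξ') (exp_pos _).le).trans ?_)
    rw [← exp_add, pow_succ (1 - α)]
    exact exp_le_exp.2 (Tail_num h0 h1 hN0 hB0 hD (pow_nonneg hα k) (norm_nonneg _)
      (norm_nonneg _) hs)

theorem tail : ∃ κ Q : ℝ, 0 < κ ∧ ∀ (n : ℕ) (α : ℝ), 0 < α → α ≤ 1 / 2 → 12 ≤ α * √n →
    α ^ 2 * √n ≤ 1 → Q ≤ α ^ 3 * n → ∀ u : Fin n → ℝ, u ⬝ᵥ u = 1 →
    (gm (Fin n × Fin n)).real {A | α / 2 < ‖res n (zz α) A u - mm α‖} ≤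
      4 * exp (-(κ * (α ^ 3 * n))) := by
  refine ⟨2⁻¹ ^ 29, 2 ^ 23, by positivity, fun n α h0 h1 h2 h3 h4 u hu => ?_⟩
  have hz := zz_im h0 h1
  obtain ⟨k, k1, k2⟩ : ∃ k : ℕ, 10 ≤ k * α ∧ k * α ≤ 11 := by
    refine ⟨⌈10 / α⌉₊, (div_le_iff₀ h0).1 (Nat.le_ceil _), ?_⟩
    have := mul_le_mul_of_nonneg_right
      (Nat.ceil_lt_add_one (by positivity : 0 ≤ 10 / α)).le h0.le
    rw [add_mul, div_mul_cancel₀ _ h0.ne'] at this
    linarith
  have hq := sqrt_nonneg (n : ℝ)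
  have hq2 : √(n : ℝ) * √n = n := mul_self_sqrt (Nat.cast_nonneg n)
  have k3 : (k : ℝ) < √n := by
    by_contra hc
    nlinarith [mul_le_mul_of_nonneg_left (not_lt.1 hc) h0.le]
  have k4 : 1 ≤ √(n : ℝ) := by nlinarith
  have k5 : k < n := by
    have : (k : ℝ) < n := by nlinarith
    exact_mod_cast this
  have k6 : 5 * (1 - α) ^ k ≤ 1 / 128 := by
    have b1 : (1 - α) ^ k ≤ exp (-α) ^ k :=
      pow_le_pow_left₀ (by linarith) (by linarith [add_one_le_exp (-α)]) k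
    have b2 : exp (-α) ^ k ≤ exp (-1) ^ 10 := by
      rw [← exp_nat_mul, ← exp_nat_mul]
      exact exp_le_exp.2 (by push_cast; linarith)
    have b3 : exp (-1) ≤ 1 / 2 := by
      rw [exp_neg, inv_le_comm₀ (exp_pos _) (by norm_num)]
      linarith [add_one_le_exp 1]
    have b4 := pow_le_pow_left₀ (exp_pos _).le b3 10
    norm_num at b4
    linarith
  obtain ⟨d₀, rfl⟩ : ∃ d₀, n = d₀ + k + 1 := ⟨n - k - 1, by omega⟩
  generalize hN : ((d₀ + k + 1 : ℕ) : ℝ) = N at *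
  have hN' : (d₀ + k + 1 : ℝ) = N := by exact_mod_cast hN
  have q1 : α ^ 3 * N ≤ α * √N := by
    nlinarith [mul_le_mul_of_nonneg_right h3 (mul_nonneg h0.le hq)]
  generalize hq' : α ^ 3 * N = q at *
  have q0 : 0 < q := by linarith [show (0 : ℝ) < 2 ^ 23 by positivity]
  have key : ∀ ω : ℂ, ‖ω‖ = 1 → (gm (Fin (d₀ + k + 1) × Fin (d₀ + k + 1))).real
      {A | 1 / 18 ≤ (ω * Wc α (res N (zz α) A u)).re} ≤ exp (-(2⁻¹ ^ 29 * q)) := by
    intro ω hω
    obtain ⟨θ, hθ⟩ : ∃ θ : ℝ, θ = q / 2 ^ 24 := ⟨_, rfl⟩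
    have θ0 : 0 < θ := by rw [hθ]; positivity
    have hn : ‖θ * ω‖ = θ := by rw [norm_mul, hω, mul_one, Complex.norm_real, norm_of_nonneg θ0.le]
    have c1 := mgf_ind h0 h1 (N := N) (B := k) (by nlinarith) k3.le d₀ (by linarith) k hN'.le
      (θ * ω) (by rw [hn, hθ]; linarith)
    have c2 := Tail_rot (N := N) hz u 0 (Tail_fm α (θ * ω))
    rw [hu, Complex.ofReal_one] at c2
    simp only [one_mul] at c2
    have c3 := mul_meas_ge_le_integral_of_nonneg
      (Filter.Eventually.of_forall fun A => (exp_pos _).le)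
      (Tail_int h0 h1 (θ * ω) (gm (Fin (d₀ + k + 1) × Fin (d₀ + k + 1))) (Tail_meas N (zz α) u)
        fun A => res_im hz A u) (exp (θ * (1 / 18)))
    rw [c2] at c3
    rw [hn, hq'] at c1
    have c4 : 2 ^ 17 / q * θ ^ 2 = 1 / 128 * θ := by rw [hθ]; field_simp; norm_num
    have c5 : (12 * k * α + 2 ^ 15) / q ≤ 1 / 128 := by
      rw [div_le_iff₀ q0]
      linarith
    have c6 := (c3.trans c1).trans (exp_le_exp.2
      (show _ ≤ θ * (1 / 18) + -(2⁻¹ ^ 29 * q) by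
        rw [c4, show q = 2 ^ 24 * θ by rw [hθ]; field_simp]
        rw [show q = 2 ^ 24 * θ by rw [hθ]; field_simp] at c5
        nlinarith [mul_le_mul_of_nonneg_right k6 θ0.le, mul_le_mul_of_nonneg_right c5 θ0.le]))
    rw [exp_add] at c6
    refine le_trans (measureReal_mono fun A hA => ?_) (le_of_mul_le_mul_left c6 (exp_pos _))
    rw [Set.mem_ofPred_eq, exp_le_exp, mul_assoc, Complex.re_ofReal_mul]
    exact mul_le_mul_of_nonneg_left hA θ0.le
  refine le_trans (measureReal_mono (s₂ := (_ ∪ _) ∪ (_ ∪ _)) (fun A hA => ?_) (measure_ne_top _ _))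
    ((measureReal_union_le _ _).trans ((add_le_add
      ((measureReal_union_le _ _).trans (add_le_add (key 1 (by simp)) (key (-1) (by simp))))
      ((measureReal_union_le _ _).trans (add_le_add (key Complex.I (by simp))
        (key (-Complex.I) (by simp))))).trans_eq (by ring)))
  by_contra hc
  simp only [Set.mem_union, Set.mem_ofPred_eq, not_or, not_le, one_mul, neg_mul, Complex.neg_re,
    Complex.I_mul_re, neg_neg] at hc
  obtain ⟨⟨a1, a2⟩, a3, a4⟩ := hc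
  refine not_le.2 hA (Wc_close h0 h1 (res_im hz A u)
    ((Complex.norm_le_abs_re_add_abs_im _).trans ?_))
  linarith [abs_le.2 ⟨(neg_lt.1 a2).le, a1.le⟩, abs_le.2 ⟨(neg_lt.1 a3).le, a4.le⟩]

end Vale.Agent.P150C
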